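import Vale.Agent.Lib.P340.Candidates

/-!
Strong normalization (hence the Barendregt-Geuvers-Klop implication) for all pure type
specifications without a rule `(s1, s2, s3)` in which both `s1` and `s2` are kind-like.
Polymorphic rules, dependent rules and arbitrary (even circular) axioms are allowed.
-/

namespace Vale.Agent.Results.P340.NoKindOperatorSN

open Vale.Agent.Lib.P340

universe u
variable {S : Type u}

/-- The kind-like sorts of `P`: the least set of sorts that contains every sort `s'`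
typing a sort (`ax s s'`) and is closed under `rule s1 s2 s3` from `s2` to `s3`. -/
inductive KindLike (P : Spec S) : S → Prop
  | ofAx {s s' : S} : P.ax s s' → KindLike P s'
  | ofRule {s1 s2 s3 : S} : P.rule s1 s2 s3 → KindLike P s2 → KindLike P s3

/-- Marks of the variables of a context: the head sorts of their types. -/
def marks : List (Tm S) → ℕ → Option S
  | [] => fun _ => none
  | A :: Γ => scons (hs A) (marks Γ)

theorem invariant (P : Spec S)
    (hP : ∀ s1 s2 s3, P.rule s1 s2 s3 → ¬ (KindLike P s1 ∧ KindLike P s2))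
    {Γ : List (Tm S)} {M T : Tm S} (h : Typ P Γ M T) :
    (∃ t, TW (KindLike P) (marks Γ) T t) ∧
      (∀ t, hs T = some t → TW (KindLike P) (marks Γ) M t) ∧
      (hs M ≠ none → hs T ≠ none) := by
  induction h with
  | @ax s1 s2 h =>
    refine ⟨⟨s2, TW.sort _ (KindLike.ofAx h)⟩, ?_, fun _ => by simp [hs]⟩
    intro t ht
    simp only [hs, Option.some.injEq] at ht
    subst ht
    exact TW.sort _ (KindLike.ofAx h)
  | @var Γ A s _ ih =>
    obtain ⟨_, a2, _⟩ := ih
    refine ⟨⟨s, (a2 s rfl).lift _⟩, ?_, fun hc => absurd rfl hc⟩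
    intro t ht
    rw [hs_lift] at ht
    exact TW.var ht
  | @weak Γ M B A s _ _ ih1 _ =>
    obtain ⟨⟨t, a1⟩, a2, a3⟩ := ih1
    refine ⟨⟨t, a1.lift _⟩, ?_, ?_⟩
    · intro t ht
      rw [hs_lift] at ht
      exact (a2 t ht).lift _
    · rw [hs_lift, hs_lift]; exact a3
  | @pi Γ A B s1 s2 s3 hr _ _ ih1 ih2 =>
    obtain ⟨⟨t, a1⟩, a2, _⟩ := ih1
    obtain ⟨_, b2, _⟩ := ih2
    have hkt : KindLike P t := a1.kind (by simp [hs])
    refine ⟨⟨t, TW.sort _ hkt⟩, ?_, fun _ => by simp [hs]⟩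
    intro t' ht'
    simp only [hs, Option.some.injEq] at ht'
    subst ht'
    exact TW.pi (a2 s1 rfl) (b2 s2 rfl) (hP _ _ _ hr) (KindLike.ofRule hr)
  | @lam Γ A M B s _ _ ih1 ih2 =>
    obtain ⟨_, a2, a3⟩ := ih1
    obtain ⟨_, b2, _⟩ := ih2
    have hpi := b2 s rfl
    refine ⟨⟨s, hpi⟩, ?_, a3⟩
    intro t ht
    obtain ⟨t1, t2, c1, c2, c3, _⟩ := hpi.pi_inv
    have hB : hs B ≠ none := by
      have : hs B = some t := ht
      rw [this]; simp
    have hA : hs A = none := by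
      by_contra hc
      exact c3 ⟨c1.kind hc, c2.kind hB⟩
    have := a2 t ht
    simp only [marks, hA] at this
    exact TW.lam _ this
  | @app Γ M N A B _ _ ih1 ih2 =>
    obtain ⟨⟨t0, a1⟩, a2, a3⟩ := ih1
    obtain ⟨_, b2, _⟩ := ih2
    obtain ⟨t1, t2, c1, c2, c3, _⟩ := a1.pi_inv
    have d1 : TW (KindLike P) (marks Γ) (inst N B) t2 := by
      refine c2.subst _ _ ?_
      intro x s hx
      cases x with
      | zero => exact b2 s hx
      | succ n => exact TW.var hx
    refine ⟨⟨t2, d1⟩, ?_, ?_⟩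
    · intro t ht
      have hk2 : KindLike P t2 := d1.kind (by rw [ht]; simp)
      have hA : hs A = none := by
        by_contra hc
        exact c3 ⟨c1.kind hc, hk2⟩
      rw [hA] at c2
      rw [(c2.inst_none N).2] at ht
      exact TW.app _ (a2 t ht)
    · intro hc
      have hB : hs B ≠ none := a3 hc
      obtain ⟨s, hs'⟩ := Option.ne_none_iff_exists'.1 hB
      have : hs (inst N B) = some s := hs_subst_some B _ s hs'
      rw [this]; simp
  | @conv Γ M A B s _ _ hc ih1 ih2 =>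
    obtain ⟨⟨t, a1⟩, a2, a3⟩ := ih1
    obtain ⟨_, b2, _⟩ := ih2
    have hB := b2 s rfl
    have he : hs A = hs B := hs_eq_of_conv a1 hB hc
    rw [he] at a2 a3
    exact ⟨⟨s, hB⟩, a2, a3⟩

/-- A valuation and a substitution are adapted to a context. -/
def Valid : List (Tm S) → (ℕ → Tm S → Prop) → (ℕ → Tm S) → Prop
  | [], _, _ => True
  | A :: Γ, ξ, γ => interp A (fun x => ξ (x + 1)) (γ 0) ∧
      Valid Γ (fun x => ξ (x + 1)) (fun x => γ (x + 1))

theorem soundness (P : Spec S)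
    (hP : ∀ s1 s2 s3, P.rule s1 s2 s3 → ¬ (KindLike P s1 ∧ KindLike P s2))
    {Γ : List (Tm S)} {M T : Tm S} (h : Typ P Γ M T) :
    ∀ (ξ : ℕ → Tm S → Prop) (γ : ℕ → Tm S), (∀ x, Cand (ξ x)) → Valid Γ ξ γ →
      interp T ξ (subst γ M) := by
  induction h with
  | ax _ => intro ξ γ _ _; exact SN.sort _
  | @var Γ A s _ _ =>
    intro ξ γ _ hv
    rw [interp_lift]
    exact hv.1
  | @weak Γ M B A s _ _ ih1 _ =>
    intro ξ γ hξ hv
    rw [interp_lift]
    simp only [lift, subst_rename]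
    exact ih1 _ _ (fun x => hξ (x + 1)) hv.2
  | @pi Γ A B s1 s2 s3 _ _ _ ih1 ih2 =>
    intro ξ γ hξ hv
    have a : SN (subst γ A) := ih1 ξ γ hξ hv
    have b : SN (subst (scons (Tm.var 0) γ) B) :=
      ih2 (scons SN ξ) (scons (Tm.var 0) γ) (cand_scons cand_SN hξ)
        ⟨(interp_cand A ξ hξ).var 0, hv⟩
    rw [← inst_subst_ups] at b
    exact SN.pi a b.of_inst
  | @lam Γ A M B s _ _ ih1 ih2 =>
    intro ξ γ hξ hv N hN X hX
    have hpi : SN (subst γ (Tm.pi A B)) := ih2 ξ γ hξ hv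
    have a : SN (subst γ A) := SN.of_pi_left hpi
    have cA := interp_cand A ξ hξ
    have cB := interp_cand B (scons X ξ) (cand_scons hX hξ)
    have hsub : ∀ N, interp A ξ N → interp B (scons X ξ) (inst N (subst (ups γ) M)) := by
      intro N hN
      rw [inst_subst_ups]
      exact ih1 (scons X ξ) (scons N γ) (cand_scons hX hξ) ⟨hN, hv⟩
    have b : SN (subst (ups γ) M) := (cB.sn _ (hsub _ (cA.var 0))).of_inst
    exact cand_lam cA cB _ a _ b hsub N (cA.sn _ hN) hN
  | @app Γ M N A B _ _ ih1 ih2 =>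
    intro ξ γ hξ hv
    rw [interp_inst]
    exact ih1 ξ γ hξ hv _ (ih2 ξ γ hξ hv) _ (interp_cand N ξ hξ)
  | @conv Γ M A B s h1 h2 hc ih1 _ =>
    intro ξ γ hξ hv
    obtain ⟨t, a1⟩ := (invariant P hP h1).1
    have hB := (invariant P hP h2).2.1 s rfl
    rw [← interp_eq_of_conv a1 hB hc ξ]
    exact ih1 ξ γ hξ hv

theorem valid_id (Γ : List (Tm S)) : ∀ (ξ : ℕ → Tm S → Prop) (k : ℕ), (∀ x, Cand (ξ x)) →
    Valid Γ ξ (fun x => Tm.var (x + k)) := by
  induction Γ with
  | nil => intro ξ k _; trivial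
  | cons A Γ ih =>
    intro ξ k hξ
    refine ⟨(interp_cand A _ (fun x => hξ (x + 1))).var _, ?_⟩
    have := ih (fun x => ξ (x + 1)) (k + 1) (fun x => hξ (x + 1))
    have e : (fun x => (Tm.var (x + (k + 1)) : Tm S)) = fun x => Tm.var (x + 1 + k) := by
      funext x; congr 1; omega
    rw [e] at this
    exact this

/-- Hereditary strong normalization of an expression read as a type. -/
def Good : Tm S → (ℕ → Tm S → Prop) → (ℕ → Tm S) → Prop
  | Tm.pi A B, ξ, γ => SN (subst γ (Tm.pi A B)) ∧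
      ∀ N, interp A ξ N → ∀ X : Tm S → Prop, Cand X → Good B (scons X ξ) (scons N γ)
  | Tm.var x, _, γ => SN (subst γ (Tm.var x))
  | Tm.sort s, _, γ => SN (subst γ (Tm.sort s))
  | Tm.app M N, _, γ => SN (subst γ (Tm.app M N))
  | Tm.lam A M, _, γ => SN (subst γ (Tm.lam A M))

theorem Good.sn {T : Tm S} {ξ : ℕ → Tm S → Prop} {γ : ℕ → Tm S} (h : Good T ξ γ) :
    SN (subst γ T) := by
  cases T with
  | pi A B => exact h.1
  | var x => exact h
  | sort s => exact h
  | app M N => exact h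
  | lam A M => exact h

theorem good_rename (T : Tm S) : ∀ (ρ : ℕ → ℕ) (ξ : ℕ → Tm S → Prop) (γ : ℕ → Tm S),
    Good T (fun x => ξ (ρ x)) (fun x => γ (ρ x)) → Good (rename ρ T) ξ γ := by
  induction T with
  | var x => intro ρ ξ γ h; exact h
  | sort s => intro ρ ξ γ h; exact h
  | app M N _ _ =>
    intro ρ ξ γ h
    have h' : SN (subst (fun x => γ (ρ x)) (Tm.app M N)) := h
    rw [← subst_rename] at h'
    exact h'
  | lam A M _ _ =>
    intro ρ ξ γ h
    have h' : SN (subst (fun x => γ (ρ x)) (Tm.lam A M)) := h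
    rw [← subst_rename] at h'
    exact h'
  | pi A B _ ihB =>
    intro ρ ξ γ h
    obtain ⟨h1, h2⟩ := h
    rw [← subst_rename] at h1
    refine ⟨h1, ?_⟩
    intro N hN X hX
    rw [interp_rename] at hN
    refine ihB _ _ _ ?_
    rw [scons_upr, scons_upr]
    exact h2 N hN X hX

theorem subst_scons_ups (σ : ℕ → Tm S) (N : Tm S) (γ : ℕ → Tm S) :
    (fun x => subst (scons N γ) (ups σ x)) = scons N (fun x => subst γ (σ x)) := by
  funext x
  cases x with
  | zero => rfl
  | succ n => simp only [ups_succ, lift, subst_rename, scons_succ]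

theorem good_subst (T : Tm S) : ∀ (σ : ℕ → Tm S) (ξ : ℕ → Tm S → Prop) (γ : ℕ → Tm S),
    (∀ x, Cand (ξ x)) → (∀ x, Good (σ x) ξ γ) →
    Good T (fun x => interp (σ x) ξ) (fun x => subst γ (σ x)) → Good (subst σ T) ξ γ := by
  induction T with
  | var x => intro σ ξ γ _ hσ _; exact hσ x
  | sort s => intro σ ξ γ _ _ h; exact h
  | app M N _ _ =>
    intro σ ξ γ _ _ h
    have h' : SN (subst (fun x => subst γ (σ x)) (Tm.app M N)) := h
    rw [← subst_subst] at h'
    exact h'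
  | lam A M _ _ =>
    intro σ ξ γ _ _ h
    have h' : SN (subst (fun x => subst γ (σ x)) (Tm.lam A M)) := h
    rw [← subst_subst] at h'
    exact h'
  | pi A B _ ihB =>
    intro σ ξ γ hξ hσ h
    obtain ⟨h1, h2⟩ := h
    rw [← subst_subst] at h1
    refine ⟨h1, ?_⟩
    intro N hN X hX
    have hNsn : SN N := (interp_cand _ ξ hξ).sn _ hN
    rw [interp_subst] at hN
    refine ihB _ _ _ (cand_scons hX hξ) ?_ ?_
    · intro x
      cases x with
      | zero => exact hNsn
      | succ n => exact good_rename _ _ _ _ (hσ n)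
    · rw [interp_ups, subst_scons_ups]
      exact h2 N hN X hX

theorem types_good (P : Spec S)
    (hP : ∀ s1 s2 s3, P.rule s1 s2 s3 → ¬ (KindLike P s1 ∧ KindLike P s2))
    {Γ : List (Tm S)} {M T : Tm S} (h : Typ P Γ M T) :
    ∀ (ξ : ℕ → Tm S → Prop) (γ : ℕ → Tm S), (∀ x, Cand (ξ x)) → Valid Γ ξ γ →
      (∀ x, SN (γ x)) → Good M ξ γ ∧ Good T ξ γ := by
  induction h with
  | ax _ => intro ξ γ _ _ _; exact ⟨SN.sort _, SN.sort _⟩
  | @var Γ A s _ ih =>
    intro ξ γ hξ hv hsn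
    exact ⟨hsn 0, good_rename _ _ _ _
      (ih _ _ (fun x => hξ (x + 1)) hv.2 (fun x => hsn (x + 1))).1⟩
  | @weak Γ M B A s _ _ ih1 _ =>
    intro ξ γ hξ hv hsn
    obtain ⟨a, b⟩ := ih1 _ _ (fun x => hξ (x + 1)) hv.2 (fun x => hsn (x + 1))
    exact ⟨good_rename _ _ _ _ a, good_rename _ _ _ _ b⟩
  | @pi Γ A B s1 s2 s3 hr h1 h2 _ ih2 =>
    intro ξ γ hξ hv hsn
    refine ⟨⟨soundness P hP (Typ.pi hr h1 h2) ξ γ hξ hv, ?_⟩, SN.sort _⟩
    intro N hN X hX
    refine (ih2 (scons X ξ) (scons N γ) (cand_scons hX hξ) ⟨hN, hv⟩ ?_).1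
    intro x
    cases x with
    | zero => exact (interp_cand A ξ hξ).sn _ hN
    | succ n => exact hsn n
  | @lam Γ A M B s h1 h2 _ ih2 =>
    intro ξ γ hξ hv hsn
    exact ⟨(interp_cand _ ξ hξ).sn _ (soundness P hP (Typ.lam h1 h2) ξ γ hξ hv),
      (ih2 ξ γ hξ hv hsn).1⟩
  | @app Γ M N A B h1 h2 ih1 ih2 =>
    intro ξ γ hξ hv hsn
    refine ⟨(interp_cand _ ξ hξ).sn _ (soundness P hP (Typ.app h1 h2) ξ γ hξ hv), ?_⟩
    refine good_subst B _ ξ γ hξ ?_ ?_
    · intro x
      cases x with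
      | zero => exact (ih2 ξ γ hξ hv hsn).1
      | succ n => exact hsn n
    · have e1 : (fun x => interp (scons N Tm.var x) ξ) = scons (interp N ξ) ξ := by
        funext x; cases x <;> rfl
      have e2 : (fun x => subst γ (scons N Tm.var x)) = scons (subst γ N) γ := by
        funext x; cases x <;> rfl
      rw [e1, e2]
      exact (ih1 ξ γ hξ hv hsn).2.2 _ (soundness P hP h2 ξ γ hξ hv) _ (interp_cand N ξ hξ)
  | @conv Γ M A B s _ _ _ ih1 ih2 =>
    intro ξ γ hξ hv hsn
    exact ⟨(ih1 ξ γ hξ hv hsn).1, (ih2 ξ γ hξ hv hsn).1⟩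

/-- If no rule `(s1, s2, s3)` of `P` has both `s1` and `s2` kind-like, then `P` is strongly
normalizing; in particular weak normalization implies strong normalization for `P`. -/
theorem result (P : Spec S)
    (hP : ∀ s1 s2 s3, P.rule s1 s2 s3 → ¬ (KindLike P s1 ∧ KindLike P s2)) :
    StronglyNormalizing P := by
  intro M hM
  have hξ : ∀ x : ℕ, Cand ((fun _ => SN : ℕ → Tm S → Prop) x) := fun _ => cand_SN
  obtain ⟨Γ, N, h | h⟩ := hM
  · have := (types_good P hP h (fun _ => SN) Tm.var hξ (valid_id Γ _ 0 hξ) (fun x => SN.var x)).1.sn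
    rw [subst_var] at this
    exact this.not_diverges
  · have := (types_good P hP h (fun _ => SN) Tm.var hξ (valid_id Γ _ 0 hξ) (fun x => SN.var x)).2.sn
    rw [subst_var] at this
    exact this.not_diverges

end Vale.Agent.Results.P340.NoKindOperatorSN
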