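import Vale.Agent.Results.P340.FiniteReduction
import Vale.Agent.Results.P340.NoKindOperatorSN

/-!
Two results on the Barendregt-Geuvers-Klop conjecture in one statement:
(1) strong normalization of every pure type specification without a rule `(s1, s2, s3)` in
which both `s1` and `s2` are kind-like;
(2) compactness: a weakly normalizing specification that is not strongly normalizing contains
a finite induced sub-specification with the same two properties.
-/

namespace Vale.Agent.Results.P340.A_Combined

open Vale.Agent.Lib.P340

universe u

theorem result :
    (∀ (S : Type u) (P : Spec S),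
      (∀ s1 s2 s3, P.rule s1 s2 s3 →
        ¬ (Vale.Agent.Results.P340.NoKindOperatorSN.KindLike P s1 ∧
          Vale.Agent.Results.P340.NoKindOperatorSN.KindLike P s2)) →
      StronglyNormalizing P) ∧
    (∀ (S : Type u) (P : Spec S), WeaklyNormalizing P → ¬ StronglyNormalizing P →
      ∃ (n : ℕ) (g : Fin n → S), Function.Injective g ∧
        WeaklyNormalizing (Vale.Agent.Results.P340.FiniteReduction.induced P g) ∧
        ¬ StronglyNormalizing (Vale.Agent.Results.P340.FiniteReduction.induced P g)) :=
  ⟨fun _ P hP => Vale.Agent.Results.P340.NoKindOperatorSN.result P hP,
    fun _ P hW hS => Vale.Agent.Results.P340.FiniteReduction.result P hW hS⟩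

end Vale.Agent.Results.P340.A_Combined
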