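import Vale.Agent.Lib.P340.SortMap

/-!
Compactness for the Barendregt-Geuvers-Klop conjecture: a weakly normalizing
specification that is not strongly normalizing contains a finite induced
sub-specification with the same two properties.
-/

namespace Vale.Agent.Results.P340.FiniteReduction

open Vale.Agent.Lib.P340

universe u

/-- The specification induced on `T` by a map `g : T → S` into the sorts of `P`. -/
def induced {S : Type u} {T : Type} (P : Spec S) (g : T → S) : Spec T where
  ax a b := P.ax (g a) (g b)
  rule a b c := P.rule (g a) (g b) (g c)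

theorem result {S : Type u} (P : Spec S)
    (hW : WeaklyNormalizing P) (hS : ¬ StronglyNormalizing P) :
    ∃ (n : ℕ) (g : Fin n → S), Function.Injective g ∧
      WeaklyNormalizing (induced P g) ∧ ¬ StronglyNormalizing (induced P g) := by
  classical
  -- a legal diverging expression
  have hS' : ∃ M, Legal P M ∧ Diverges M := by
    by_contra hcon
    exact hS (fun M hM hD => hcon ⟨M, hM, hD⟩)
  obtain ⟨M, hM, f, hf0, hf⟩ := hS'
  -- a finite set of sorts supporting its derivation
  have hT : ∃ T : Finset S, T.Nonempty ∧ Legal (P.restrict (T : Set S)) M := by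
    obtain ⟨Γ, N, h | h⟩ := hM
    · obtain ⟨T, hne, hT⟩ := h.finite_support
      exact ⟨T, hne, Γ, N, Or.inl hT⟩
    · obtain ⟨T, hne, hT⟩ := h.finite_support
      exact ⟨T, hne, Γ, N, Or.inr hT⟩
  obtain ⟨T, ⟨s0, hs0⟩, hTM⟩ := hT
  let e : {x // x ∈ T} ≃ Fin T.card := T.equivFin
  let g : Fin T.card → S := fun i => (e.symm i).val
  let r : S → Fin T.card := fun a => if ha : a ∈ T then e ⟨a, ha⟩ else e ⟨s0, hs0⟩
  have hgr : ∀ a, a ∈ T → g (r a) = a := by
    intro a ha
    simp only [g, r, ha, dif_pos, Equiv.symm_apply_apply]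
  refine ⟨T.card, g, ?_, ?_, ?_⟩
  · intro i j hij
    have : e.symm i = e.symm j := Subtype.ext hij
    exact e.symm.injective this
  · intro M' hM'
    have hleg : Legal P (mapS g M') :=
      legal_mapS (P := induced P g) (Q := P) g (fun _ _ h => h) (fun _ _ _ h => h) hM'
    obtain ⟨N, hred, hnf⟩ := hW _ hleg
    obtain ⟨N', rfl, hred'⟩ := red_of_mapS g M' N hred
    exact ⟨N', hred', fun X hX => hnf _ (step_mapS g hX)⟩
  · intro hSN
    have hleg : Legal (induced P g) (mapS r M) := by
      refine legal_mapS (P := P.restrict (T : Set S)) (Q := induced P g) r ?_ ?_ hTM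
      · intro a b h
        show P.ax (g (r a)) (g (r b))
        rw [hgr a h.2.1, hgr b h.2.2]
        exact h.1
      · intro a b c h
        show P.rule (g (r a)) (g (r b)) (g (r c))
        rw [hgr a h.2.1, hgr b h.2.2.1, hgr c h.2.2.2]
        exact h.1
    exact hSN _ hleg ⟨fun n => mapS r (f n), by simp only [hf0], fun n => step_mapS r (hf n)⟩

end Vale.Agent.Results.P340.FiniteReduction
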