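import Vale.Agent.Lib.P340.Reducibility

/-!
Strong normalization (hence the Barendregt-Geuvers-Klop implication) for all pure type
specifications in which no product rule quantifies over a kind-like sort.
Dependent rules and arbitrary (even circular) axioms are allowed.
-/

namespace Vale.Agent.Results.P340.FirstOrderSN

open Vale.Agent.Lib.P340

universe u
variable {S : Type u}

/-- The kind-like sorts of `P`: the least set of sorts that contains every sort `s'`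
typing a sort (`ax s s'`) and is closed under `rule s1 s2 s3` from `s2` to `s3`. -/
inductive KindLike (P : Spec S) : S → Prop
  | ofAx {s s' : S} : P.ax s s' → KindLike P s'
  | ofRule {s1 s2 s3 : S} : P.rule s1 s2 s3 → KindLike P s2 → KindLike P s3

/-- Skeleton context of a context. -/
def sks : List (Tm S) → ℕ → Sk S
  | [] => fun _ => Sk.base none
  | A :: Γ => scons (sk A) (sks Γ)

theorem invariant (P : Spec S) (hP : ∀ s1 s2 s3, P.rule s1 s2 s3 → ¬ KindLike P s1)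
    {Γ : List (Tm S)} {M T : Tm S} (h : Typ P Γ M T) :
    STyp (sks Γ) M (sk T) ∧ (∃ s, STyp (sks Γ) T (Sk.base (some s))) ∧
      ((sk M).tgt ≠ none → ∃ s, (sk T).tgt = some s ∧ KindLike P s) := by
  induction h with
  | @ax s1 s2 h =>
    exact ⟨STyp.sort _ _ _, ⟨s2, STyp.sort _ _ _⟩, fun _ => ⟨s2, rfl, KindLike.ofAx h⟩⟩
  | @var Γ A s _ ih =>
    obtain ⟨a1, _, _⟩ := ih
    refine ⟨?_, ⟨s, a1.lift _⟩, fun hc => absurd rfl hc⟩
    rw [sk_lift]
    exact STyp.var (sks (A :: Γ)) 0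
  | @weak Γ M B A s _ _ ih1 ih2 =>
    obtain ⟨a1, ⟨t, a2⟩, a3⟩ := ih1
    refine ⟨?_, ⟨t, a2.lift _⟩, ?_⟩
    · rw [sk_lift]; exact a1.lift _
    · rw [sk_lift, sk_lift]; exact a3
  | @pi Γ A B s1 s2 s3 hr _ _ ih1 ih2 =>
    obtain ⟨a1, _, a3⟩ := ih1
    obtain ⟨b1, _, b3⟩ := ih2
    have hA : (sk A).tgt = none := by
      by_contra hc
      obtain ⟨s, hs, hk⟩ := a3 hc
      simp only [sk, Sk.tgt, Option.some.injEq] at hs
      subst hs
      exact hP _ _ _ hr hk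
    refine ⟨STyp.pi s3 a1 hA b1, ⟨s3, STyp.sort _ _ _⟩, fun hc => ?_⟩
    obtain ⟨s, hs, hk⟩ := b3 hc
    simp only [sk, Sk.tgt, Option.some.injEq] at hs
    subst hs
    exact ⟨s3, rfl, KindLike.ofRule hr hk⟩
  | @lam Γ A M B s _ _ ih1 ih2 =>
    obtain ⟨a1, _, a3⟩ := ih1
    obtain ⟨b1, _, _⟩ := ih2
    obtain ⟨t1, t2, t3, _, c1, c2, _⟩ := b1.pi_inv
    exact ⟨STyp.lam c1 c2 a1, ⟨s, b1⟩, a3⟩
  | @app Γ M N A B _ _ ih1 ih2 =>
    obtain ⟨a1, ⟨t, a2⟩, a3⟩ := ih1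
    obtain ⟨b1, _, _⟩ := ih2
    obtain ⟨t1, t2, t3, _, _, c2, c3⟩ := a2.pi_inv
    obtain ⟨d1, d2⟩ := c3.inst b1 c2
    have d2 := d2 (by simp [Sk.tgt])
    refine ⟨?_, ⟨t2, d1⟩, ?_⟩
    · rw [d2]; exact STyp.app a1 b1 c2
    · rw [d2]; exact a3
  | @conv Γ M A B s _ _ hc ih1 ih2 =>
    obtain ⟨a1, ⟨t, a2⟩, a3⟩ := ih1
    obtain ⟨b1, _, _⟩ := ih2
    have he : sk A = sk B := sk_eq_of_conv a2 b1 (by simp [Sk.tgt]) (by simp [sk, Sk.tgt]) hc
    rw [he] at a1 a3
    exact ⟨a1, ⟨s, b1⟩, a3⟩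

/-- If no rule `(s1, s2, s3)` of `P` has a kind-like first component, then `P` is strongly
normalizing; in particular weak normalization implies strong normalization for `P`. -/
theorem result (P : Spec S) (hP : ∀ s1 s2 s3, P.rule s1 s2 s3 → ¬ KindLike P s1) :
    StronglyNormalizing P := by
  intro M hM
  obtain ⟨Γ, N, h | h⟩ := hM
  · exact (styp_sn (invariant P hP h).1).not_diverges
  · obtain ⟨s, hs⟩ := (invariant P hP h).2.1
    exact (styp_sn hs).not_diverges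

end Vale.Agent.Results.P340.FirstOrderSN
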